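import Vale.Agent.Cov.Dens
import Vale.Agent.Cov.Final26
import Vale.Agent.Cov.Lin12

/-! # P230: the worst-case translative covering density is at least `c n log n` -/

namespace Vale.Agent.Results.P230.CoveringNLogN

/-- There are an absolute constant `c > 0` and `n₀` such that for every `n ≥ n₀` some convex
body `K` in `ℝ^n` has translative covering density `θ_T(K) ≥ c n log n`. In particular there is
no absolute constant `C` with `θ_T(K) ≤ C n` for every convex body `K` in every dimension
`n ≥ 1`. -/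
theorem result :
    (∃ c : ℝ, 0 < c ∧ ∃ n₀ : ℕ, ∀ n : ℕ, n₀ ≤ n →
      ∃ K : Set (EuclideanSpace ℝ (Fin n)), Cov.IsBody K ∧
        ENNReal.ofReal (c * n * Real.log n) ≤ Cov.thetaT K) ∧
    ¬ ∃ C : ℝ, ∀ n : ℕ, 1 ≤ n → ∀ K : Set (EuclideanSpace ℝ (Fin n)), Cov.IsBody K →
        Cov.thetaT K ≤ ENNReal.ofReal (C * n) :=
  ⟨Cov.lower, Cov.no_linear_pos⟩

end Vale.Agent.Results.P230.CoveringNLogN
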