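import Vale.Agent.Cov.Dens
import Vale.Agent.Cov.Lat
import Vale.Agent.Cov.LatDef
import Vale.Agent.Cov.Lin12

/-! # P230: translative and lattice covering densities of order at least `n log n` -/

namespace Vale.Agent.Results.P230.CoveringTL

/-- There are an absolute constant `c > 0` and `n₀` such that for every `n ≥ n₀` some convex
body `K` in `ℝ^n` satisfies `θ_L(K) ≥ θ_T(K) ≥ c n log n`. In particular there is
no absolute constant `C` with `θ_T(K) ≤ C n` for every convex body `K` in every dimension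
`n ≥ 1`. -/
theorem result :
    (∃ c : ℝ, 0 < c ∧ ∃ n₀ : ℕ, ∀ n : ℕ, n₀ ≤ n →
      ∃ K : Set (EuclideanSpace ℝ (Fin n)), Cov.IsBody K ∧
        ENNReal.ofReal (c * n * Real.log n) ≤ Cov.thetaT K ∧
        ENNReal.ofReal (c * n * Real.log n) ≤ Cov.thetaL K) ∧
    (¬ ∃ C : ℝ, ∀ n : ℕ, 1 ≤ n → ∀ K : Set (EuclideanSpace ℝ (Fin n)), Cov.IsBody K →
        Cov.thetaT K ≤ ENNReal.ofReal (C * n)) ∧
    (∀ n : ℕ, 1 ≤ n → ∀ K : Set (EuclideanSpace ℝ (Fin n)), Cov.IsBody K →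
        Cov.thetaT K ≤ Cov.thetaL K) := by
  refine ⟨?_, Cov.no_linear_pos, fun n hn K _ => Cov.thetaT_le_thetaL hn K⟩
  obtain ⟨c, hc, n₀, h⟩ := Cov.lower
  refine ⟨c, hc, max n₀ 1, fun n hn => ?_⟩
  obtain ⟨K, h1, h2⟩ := h n ((le_max_left _ _).trans hn)
  exact ⟨K, h1, h2, h2.trans (Cov.thetaT_le_thetaL ((le_max_right _ _).trans hn) K)⟩

end Vale.Agent.Results.P230.CoveringTL
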